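import Mathlib

namespace Vale.Agent.Results.P192.RelatorCount

open Module

private theorem main (m : ℕ) (rels : Set (FreeGroup (Fin m))) (hfin : rels.Finite)
    (hlt : rels.ncard < m) : ∃ i : Fin m, ¬ IsOfFinOrder (PresentedGroup.of (rels := rels) i) := by
  classical
  -- exponent-sum map
  let e : FreeGroup (Fin m) →* Multiplicative (Fin m → ℚ) :=
    FreeGroup.lift (fun i => Multiplicative.ofAdd (Pi.single i (1 : ℚ)))
  let T : Finset (Fin m → ℚ) := hfin.toFinset.image (fun w => Multiplicative.toAdd (e w))
  let W : Submodule ℚ (Fin m → ℚ) := Submodule.span ℚ (T : Set (Fin m → ℚ))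
  have hW : W < ⊤ := by
    rw [lt_top_iff_ne_top]
    intro htop
    have h1 : finrank ℚ W ≤ T.card := finrank_span_finset_le_card T
    have h2 : T.card ≤ rels.ncard := by
      rw [Set.ncard_eq_toFinset_card rels hfin]
      exact Finset.card_image_le
    have h3 : finrank ℚ W = m := by
      rw [htop]
      simp
    omega
  obtain ⟨f, hf0, hfW⟩ := Submodule.exists_le_ker_of_lt_top W hW
  let gen : Fin m → Multiplicative ℚ := fun i => Multiplicative.ofAdd (f (Pi.single i 1))
  have hψ : FreeGroup.lift gen
      = (AddMonoidHom.toMultiplicative (f : (Fin m → ℚ) →+ ℚ)).comp e := by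
    ext i
    simp [gen, e]
  have hrel : ∀ r ∈ rels, FreeGroup.lift gen r = 1 := by
    intro r hr
    rw [hψ]
    have hmem : Multiplicative.toAdd (e r) ∈ W := by
      apply Submodule.subset_span
      exact Finset.mem_coe.2 (Finset.mem_image.2 ⟨r, hfin.mem_toFinset.2 hr, rfl⟩)
    have h0 : f (Multiplicative.toAdd (e r)) = 0 := LinearMap.mem_ker.1 (hfW hmem)
    show Multiplicative.ofAdd (f (Multiplicative.toAdd (e r))) = 1
    rw [h0]
    rfl
  have hex : ∃ i : Fin m, f (Pi.single i 1) ≠ 0 := by
    by_contra hcon
    apply hf0
    apply (Pi.basisFun ℚ (Fin m)).ext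
    intro i
    rw [Pi.basisFun_apply]
    by_contra hne
    exact hcon ⟨i, by simpa using hne⟩
  obtain ⟨i, hi⟩ := hex
  refine ⟨i, ?_⟩
  intro hfo
  obtain ⟨n, hn, hpow⟩ := isOfFinOrder_iff_pow_eq_one.1 hfo
  have h1 : (PresentedGroup.toGroup hrel) (PresentedGroup.of (rels := rels) i ^ n) = 1 := by
    rw [hpow, map_one]
  rw [map_pow, PresentedGroup.toGroup.of] at h1
  have h2 : n • f (Pi.single i 1) = 0 := by
    have : Multiplicative.ofAdd (n • f (Pi.single i 1)) = 1 := by
      rw [ofAdd_nsmul]
      exact h1
    exact this
  rcases smul_eq_zero.1 h2 with h | h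
  · omega
  · exact hi h

private theorem derived_finiteIndex (G : Type) [Group G] [Group.FG G]
    (hG : ∀ g : G, IsOfFinOrder g) : ∀ n : ℕ, (derivedSeries G n).FiniteIndex := by
  intro n
  induction n with
  | zero =>
    rw [derivedSeries_zero]
    infer_instance
  | succ n ih =>
    have := ih
    have : Group.FG (derivedSeries G n) := inferInstance
    have htor : IsMulTorsion (Abelianization (derivedSeries G n)) := by
      intro x
      obtain ⟨y, rfl⟩ := QuotientGroup.mk_surjective x
      have hy : IsOfFinOrder y :=
        (Submonoid.isOfFinOrder_coe (H := (derivedSeries G n).toSubmonoid) (x := y)).1 (hG (y : G))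
      exact (QuotientGroup.mk' (commutator (derivedSeries G n))).isOfFinOrder hy
    have : Group.FG (Abelianization (derivedSeries G n)) := QuotientGroup.fg _
    have : Finite (Abelianization (derivedSeries G n)) :=
      CommGroup.finite_of_fg_isMulTorsion _ htor
    have : Finite ((derivedSeries G n) ⧸ commutator (derivedSeries G n)) :=
      (inferInstance : Finite (Abelianization (derivedSeries G n)))
    have : (commutator (derivedSeries G n)).FiniteIndex :=
      Subgroup.finiteIndex_of_finite_quotient
    rw [derivedSeries_succ, ← Subgroup.map_subtype_commutator]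
    constructor
    rw [Subgroup.index_map_subtype]
    exact mul_ne_zero Subgroup.FiniteIndex.index_ne_zero Subgroup.FiniteIndex.index_ne_zero

/-- (1) A group given by `m` generators and a finite set of fewer than `m` relators is not
periodic: one of the generators has infinite order.
(2) Hence if a periodic group `G` has an ordinary finite presentation with `m` generators and the
finite set `rels` of relators, then `rels` has at least `m` elements.
(3) In a finitely generated periodic group every term of the derived series has finite index; in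
particular a finitely generated periodic solvable group is finite. -/
theorem result :
    (∀ (m : ℕ) (rels : Set (FreeGroup (Fin m))), rels.Finite → rels.ncard < m →
      ∃ i : Fin m, ¬ IsOfFinOrder (PresentedGroup.of (rels := rels) i)) ∧
    (∀ (m : ℕ) (rels : Set (FreeGroup (Fin m))), rels.Finite →
      ∀ (G : Type) [Group G], Nonempty (G ≃* PresentedGroup rels) →
        (∀ g : G, IsOfFinOrder g) → m ≤ rels.ncard) ∧
    (∀ (G : Type) [Group G] [Group.FG G], (∀ g : G, IsOfFinOrder g) →
      (∀ n : ℕ, (derivedSeries G n).index ≠ 0) ∧ (Group.IsSolvable G → Finite G)) := by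
  refine ⟨main, ?_, ?_⟩
  · intro m rels hfin G _ ⟨φ⟩ hG
    by_contra hlt
    obtain ⟨i, hi⟩ := main m rels hfin (by omega)
    apply hi
    have := (φ : G →* PresentedGroup rels).isOfFinOrder (hG (φ.symm (PresentedGroup.of i)))
    simpa using this
  · intro G _ _ hG
    have h := derived_finiteIndex G hG
    refine ⟨fun n => (h n).index_ne_zero, ?_⟩
    intro hsol
    obtain ⟨n, hn⟩ := hsol.solvable
    have h0 := (h n).index_ne_zero
    rw [hn, Subgroup.index_bot] at h0
    exact Nat.finite_of_card_ne_zero h0

end Vale.Agent.Results.P192.RelatorCount
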